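import Vale.Agent.P139.R3.H36.Defs

/-! # P139: sizes of solutions -/

open Set

namespace Vale.Agent.P139.R3.H39W

open Vale.Agent.P139.A

/-- A size on `H^k(T^d)`: a real function `ν` on `H^k` (given on Fourier coefficients) which is
lower semicontinuous, bounds the Wiener norm `∑ |a_n|` on each set `{ν ≤ M}`, and takes the same
value on a function and on its complex conjugate. Examples: `∑ |a_n|`, the norm of `H^s` for
`d/2 < s ≤ k`. -/
structure IsSize {d : ℕ} (k : ℕ) (ν : ((Fin d → ℤ) → ℂ) → ℝ) : Prop where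
  lsc : ∀ a, MemSobolev k a → ∀ c : ℝ, c < ν a → ∃ δ : ℝ, 0 < δ ∧ ∀ b, MemSobolev k b →
    sobolevSq k (fun n => b n - a n) < δ → c < ν b
  wiener : ∀ M : ℝ, ∃ R : ℝ, ∀ a, MemSobolev k a → ν a ≤ M → ∑' n, ‖a n‖ ≤ R
  conj_eq : ∀ a, MemSobolev k a → ν (fun n => (starRingEnd ℂ) (a (-n))) = ν a

/-- Every solution `u ∈ C([0,T]; H^k(T^d))` with `u 0 = a`, on every interval `[0,T]`, satisfies
`ν(u(t)) ≤ φ(t)` for all `t ∈ [0,T]`. -/
def StaysBelow (d p k : ℕ) (ν : ((Fin d → ℤ) → ℂ) → ℝ) (φ : ℝ → ℝ) (a : (Fin d → ℤ) → ℂ) : Prop :=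
  ∀ (T : ℝ) (u : ℝ → (Fin d → ℤ) → ℂ), IsSolution d p k T u → u 0 = a →
    ∀ t ∈ Icc 0 T, ν (u t) ≤ φ t

/-- For no constant `C` do the solutions from `a` stay below `C φ`, forward in time or backward in
time (backward in time: the conjugates of the solutions from the conjugate datum, whose Fourier
coefficients are `conj (a (-n))`). -/
def Outgrow (d p k : ℕ) (ν : ((Fin d → ℤ) → ℂ) → ℝ) (φ : ℝ → ℝ) (a : (Fin d → ℤ) → ℂ) : Prop :=
  ∀ C : ℝ, ¬ StaysBelow d p k ν (fun t => C * φ t) a ∧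
    ¬ StaysBelow d p k ν (fun t => C * φ t) (fun n => (starRingEnd ℂ) (a (-n)))

end Vale.Agent.P139.R3.H39W
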