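import Vale.Agent.P139.R3.H39W.Defs
import Vale.Agent.P139.R3.H36.Main
import Vale.Agent.P139.R3.H156.Persist

/-! # P139: growth of generic solutions or global existence with positive probability -/

open Set Metric Filter Topology MeasureTheory ProbabilityTheory
open scoped NNReal ENNReal ComplexConjugate

namespace Vale.Agent.P139.R3.H39W

open Vale.Agent.P139.A Vale.Agent.P139.H836 Vale.Agent.P139.H203 Vale.Agent.P139.R3.H36
  Vale.Agent.P139.R3.H36.HS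

variable {d k : ℕ}

/-- A lower bound of the lifespan in terms of the norm. -/
theorem local_ex (hk : d < 2 * k) (m : ℕ) (M : ℝ) :
    ∃ δ : ℝ, 0 < δ ∧ ∀ x : HS d k, ‖x‖ ≤ M → x ∈ (D m δ : Set (HS d k)) := by
  set ρ : ℝ := |M| + 1 with hρd
  have hρ : 0 < ρ := by positivity
  obtain ⟨K, hK⟩ := fld_lip (d := d) hk m (r := 2 * ρ) (by positivity)
  obtain ⟨B, hB⟩ := fld_bound (d := d) hk m (r := 2 * ρ) (by positivity)
  set δ : ℝ := 1 / ((B : ℝ) + 1) with hδd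
  have hB1 : (0 : ℝ) < (B : ℝ) + 1 := by positivity
  have hδ : 0 < δ := by positivity
  refine ⟨δ, hδ, fun x hx => ?_⟩
  obtain ⟨v, hv0, hv⟩ := exists_cutoff (fld m : ℝ → HS d k → HS d k) hρ K B hδ.le
    (fun t _ => hK t) (fun t _ => hB t)
    (fun x => ((continuous_fld hk m).comp
      (continuous_id.prodMk continuous_const)).continuousOn) x
  have hbd : ∀ t ∈ Icc 0 δ, ‖v t‖ ≤ ρ := by
    intro t ht
    have h1 := (convex_Icc (0 : ℝ) δ).norm_image_sub_le_of_norm_hasDerivWithin_le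
      (f := v) (C := B) (fun s hs => hv s hs)
      (fun s _ => cutField_norm_le hρ (hB s) (v s)) ⟨le_rfl, hδ.le⟩ ht
    rw [sub_zero, Real.norm_of_nonneg ht.1, hv0] at h1
    have h2 : (B : ℝ) * t ≤ 1 := by
      calc (B : ℝ) * t ≤ ((B : ℝ) + 1) * δ := mul_le_mul (by linarith) ht.2 ht.1 hB1.le
        _ = 1 := by rw [hδd]; field_simp
    have h3 : ‖v t‖ ≤ ‖v t - x‖ + ‖x‖ := by simpa using norm_add_le (v t - x) x
    have h4 := le_abs_self M
    linarith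
  refine ⟨v, fun t ht => ?_, hv0⟩
  have hcut : cutField (fld m : ℝ → HS d k → HS d k) ρ t (v t) = fld m t (v t) := by
    unfold cutField
    rw [cut_eq_one ((div_le_one hρ).2 (hbd t ht)), one_smul]
  have h := hv t ht
  rwa [hcut] at h

/-- Continuation in terms of the Wiener norm. -/
theorem norm_le_of_wiener (hk : d < 2 * k) (m : ℕ) : ∃ C : ℝ, 0 ≤ C ∧ ∀ (s : ℝ) (y : ℝ → HS d k),
    0 ≤ s → Sol m s y → ∀ R : ℝ, (∀ t ∈ Icc 0 s, ‖toW (U t (y t))‖ ≤ R) →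
      ‖y s‖ ≤ ‖y 0‖ * Real.exp (C * R ^ (2 * m) * s) := by
  obtain ⟨C, hC, hN⟩ := H156.tame_N (d := d) hk m
  refine ⟨C, hC, fun s y hs hy R hR => ?_⟩
  have h3 : ∀ t ∈ Ico 0 s, ‖fld m t (y t)‖ ≤ (C * R ^ (2 * m)) * ‖y t‖ + 0 := by
    intro t ht
    have h4 := hR t (Ico_subset_Icc_self ht)
    rw [norm_fld, add_zero]
    calc ‖N m (U t (y t))‖ ≤ C * ‖toW (U t (y t))‖ ^ (2 * m) * ‖U t (y t)‖ := hN _
      _ ≤ C * R ^ (2 * m) * ‖y t‖ := by
          rw [norm_U]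
          gcongr
  have h4 := norm_le_gronwallBound_of_norm_deriv_right_le (f := y)
    (f' := fun t => fld m t (y t)) (δ := ‖y 0‖) (K := C * R ^ (2 * m)) (ε := 0) (a := 0) (b := s)
    hy.cont
    (fun t ht => (hy t (Ico_subset_Icc_self ht)).mono_of_mem_nhdsWithin
      (Icc_mem_nhdsGE_of_mem ht)) le_rfl h3 s ⟨hs, le_rfl⟩
  rwa [gronwallBound_ε0, sub_zero] at h4

/-- The data whose solutions stay below `φ`. -/
def F (m : ℕ) (ν : (Lat d → ℂ) → ℝ) (φ : ℝ → ℝ) : Set (HS d k) :=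
  {x | StaysBelow d (2 * m + 1) k ν φ (co x)}

theorem not_mem_F (hk : d < 2 * k) {m : ℕ} {ν : (Lat d → ℂ) → ℝ} {φ : ℝ → ℝ} {x : HS d k} :
    x ∉ (F m ν φ : Set (HS d k)) ↔ ∃ t : ℝ, 0 ≤ t ∧ x ∈ (D m t : Set (HS d k)) ∧
      φ t < ν (co (Φ m t x)) := by
  constructor
  · intro h
    simp only [F, mem_ofPred_eq, StaysBelow, not_forall, not_le] at h
    obtain ⟨T, u, hu, h0, t, ht, hlt⟩ := h
    have hu' := IsSolution.restrict ht.2 hu
    refine ⟨t, ht.1, (mem_D_iff hk ht.1 x).2 ⟨u, hu', h0⟩, ?_⟩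
    rwa [Φ_eq_of hk ht.1 hu' h0]
  · rintro ⟨t, ht, hx, hlt⟩ hF
    obtain ⟨u, hu, h0⟩ := (mem_D_iff hk ht x).1 hx
    rw [Φ_eq_of hk ht hu h0] at hlt
    exact absurd (hF t u hu h0 t ⟨ht, le_rfl⟩) (not_le.2 hlt)

theorem isOpen_lsc {ν : (Lat d → ℂ) → ℝ} (hν : IsSize k ν) (c : ℝ) :
    IsOpen {y : HS d k | c < ν (co y)} := by
  rw [Metric.isOpen_iff]
  intro x hx
  obtain ⟨δ, hδ, h⟩ := hν.lsc (co x) (memS x) c hx
  refine ⟨Real.sqrt δ, Real.sqrt_pos.2 hδ, fun y hy => ?_⟩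
  rw [mem_ball, dist_eq_norm] at hy
  refine h (co y) (memS y) ?_
  rw [← norm_sub_sq, ← Real.sq_sqrt hδ.le]
  exact pow_lt_pow_left₀ hy (norm_nonneg _) two_ne_zero

theorem isOpen_compl_F (hk : d < 2 * k) (m : ℕ) {ν : (Lat d → ℂ) → ℝ} (hν : IsSize k ν)
    (φ : ℝ → ℝ) : IsOpen (F m ν φ : Set (HS d k))ᶜ := by
  have h : (F m ν φ : Set (HS d k))ᶜ = ⋃ t : {t : ℝ // 0 ≤ t},
      (D m (t : ℝ) ∩ Φ m (t : ℝ) ⁻¹' {y : HS d k | φ t < ν (co y)}) := by
    ext x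
    rw [mem_compl_iff, not_mem_F hk, mem_iUnion]
    constructor
    · rintro ⟨t, ht, h1, h2⟩
      exact ⟨⟨t, ht⟩, h1, h2⟩
    · rintro ⟨⟨t, ht⟩, h1, h2⟩
      exact ⟨t, ht, h1, h2⟩
  rw [h]
  refine isOpen_iUnion fun t => ?_
  exact (continuousOn_Φ hk t.2).isOpen_inter_preimage (isOpen_D hk t.2) (isOpen_lsc hν (φ t))

/-- Solutions below a locally bounded function are global. -/
theorem mem_D_of_F (hk : d < 2 * k) {m : ℕ} {ν : (Lat d → ℂ) → ℝ} (hν : IsSize k ν) {φ : ℝ → ℝ}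
    (hb : ∀ T, ∃ M, ∀ t ∈ Icc 0 T, φ t ≤ M)
    {x : HS d k} (hx : x ∈ (F m ν φ : Set (HS d k))) {T : ℝ} (hT : 0 ≤ T) :
    x ∈ (D m T : Set (HS d k)) := by
  obtain ⟨M, hM⟩ := hb T
  obtain ⟨R₀, hR₀⟩ := hν.wiener M
  set R : ℝ := max R₀ 0 with hR
  have hR0 : 0 ≤ R := le_max_right _ _
  obtain ⟨C, hC, hG⟩ := norm_le_of_wiener (d := d) (k := k) hk m
  set E : ℝ := ‖x‖ * Real.exp (C * R ^ (2 * m) * T) with hE
  obtain ⟨δ, hδ, hloc⟩ := local_ex (d := d) (k := k) hk m E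
  have key : ∀ j : ℕ, (j : ℝ) * δ ≤ T + δ → x ∈ (D m ((j : ℝ) * δ) : Set (HS d k)) := by
    intro j
    induction j with
    | zero =>
      intro _
      obtain ⟨δ', hδ', h⟩ := local_ex (d := d) (k := k) hk m ‖x‖
      refine D_mono ?_ (h x le_rfl)
      simpa using hδ'.le
    | succ j ih =>
      intro hj
      push_cast at hj ⊢
      have hjT : (j : ℝ) * δ ≤ T := by linarith
      have hj0 : 0 ≤ (j : ℝ) * δ := by positivity
      have h1 := ih (by linarith)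
      have h2 : ‖Φ m ((j : ℝ) * δ) x‖ ≤ E := by
        obtain ⟨y, hy, hy0⟩ := h1
        have h4 : ∀ t ∈ Icc 0 ((j : ℝ) * δ), ‖toW (U t (y t))‖ ≤ R := by
          intro t ht
          have h5 := hx ((j : ℝ) * δ) _ (isSolution_of hk hy)
            (by simp only [U_zero_time, hy0]) t ht
          have h6 := hR₀ _ (memS (U t (y t))) (h5.trans (hM t ⟨ht.1, ht.2.trans hjT⟩))
          rw [H156.norm_toW hk]
          exact h6.trans (le_max_left _ _)
        have h7 := hG _ y hj0 hy R h4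
        rw [← hy0, Φ_eq hk hj0 hy, norm_U, hE, ← hy0]
        refine h7.trans ?_
        gcongr
      have h3 := D_add hk hj0 hδ.le h1 (a := x) (by
        rw [Ψ, cj_cj]
        exact hloc _ h2)
      rw [add_mul, one_mul]
      exact h3
  set j := ⌈T / δ⌉₊ with hj
  have h1 : T ≤ (j : ℝ) * δ := by
    have := Nat.le_ceil (T / δ)
    rwa [div_le_iff₀ hδ] at this
  have h2 : (j : ℝ) * δ ≤ T + δ := by
    have h3 := (Nat.ceil_lt_add_one (div_nonneg hT hδ.le)).le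
    calc (j : ℝ) * δ ≤ (T / δ + 1) * δ := by gcongr
      _ = T + δ := by field_simp
  exact D_mono h1 (key j h2)

theorem lifespan_of_F (hk : d < 2 * k) {m : ℕ} {ν : (Lat d → ℂ) → ℝ} (hν : IsSize k ν)
    {φ : ℝ → ℝ} (hb : ∀ T, ∃ M, ∀ t ∈ Icc 0 T, φ t ≤ M) {a : Lat d → ℂ} (ha : MemSobolev k a)
    (h : StaysBelow d (2 * m + 1) k ν φ a) : lifespan d (2 * m + 1) k a = ⊤ := by
  have hco : co (toH k a) = a := funext (co_toH ha)
  refine ENNReal.eq_top_of_forall_nnreal_le fun T => ?_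
  have h1 : toH k a ∈ (F m ν φ : Set (HS d k)) := by
    show StaysBelow d (2 * m + 1) k ν φ (co (toH k a))
    rwa [hco]
  have h2 := le_lifespan hk (NNReal.coe_nonneg T)
    ⟨ha, mem_D_of_F hk hν hb h1 (NNReal.coe_nonneg T)⟩
  rwa [ENNReal.ofReal_coe_nnreal] at h2

theorem mul_bdd {φ : ℝ → ℝ} (hb : ∀ T, ∃ M, ∀ t ∈ Icc 0 T, φ t ≤ M) (N : ℕ) :
    ∀ T, ∃ M, ∀ t ∈ Icc 0 T, (N : ℝ) * φ t ≤ M := by
  intro T
  obtain ⟨M, hM⟩ := hb T
  exact ⟨N * M, fun t ht => mul_le_mul_of_nonneg_left (hM t ht) (Nat.cast_nonneg N)⟩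

theorem StaysBelow.mono {p : ℕ} {ν : (Lat d → ℂ) → ℝ} {φ ψ : ℝ → ℝ} (h : ∀ t, φ t ≤ ψ t)
    {a : Lat d → ℂ} (ha : StaysBelow d p k ν φ a) : StaysBelow d p k ν ψ a :=
  fun T u hu h0 t ht => (ha T u hu h0 t ht).trans (h t)

theorem alt (hk : d < 2 * k) (m : ℕ) {ν : (Lat d → ℂ) → ℝ} (hν : IsSize k ν) {φ : ℝ → ℝ}
    (hφ : ∀ t, 0 ≤ φ t) (hb : ∀ T, ∃ M, ∀ t ∈ Icc 0 T, φ t ≤ M) :
    Generic k (Outgrow d (2 * m + 1) k ν φ) ∨
      ∃ (C : ℝ) (O : Set (Lat d → ℂ)), IsOpenH k O ∧ O.Nonempty ∧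
        ∀ a ∈ O, lifespan d (2 * m + 1) k a = ⊤ ∧
          StaysBelow d (2 * m + 1) k ν (fun t => C * φ t) a := by
  by_cases h : ∃ N : ℕ, (interior (F m ν (fun t => (N : ℝ) * φ t) : Set (HS d k))).Nonempty
  · obtain ⟨N, x, hx⟩ := h
    refine Or.inr ⟨N, img (interior (F m ν (fun t => (N : ℝ) * φ t))), isOpenH_img isOpen_interior,
      ⟨co x, memS x, by rwa [toH_co]⟩, fun a ha => ?_⟩
    have h1 : StaysBelow d (2 * m + 1) k ν (fun t => (N : ℝ) * φ t) a := by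
      have h2 : StaysBelow d (2 * m + 1) k ν (fun t => (N : ℝ) * φ t) (co (toH k a)) :=
        interior_subset ha.2
      rwa [funext (co_toH ha.1)] at h2
    exact ⟨lifespan_of_F hk hν (mul_bdd hb N) ha.1 h1, h1⟩
  · refine Or.inl ⟨fun N : ℕ => img ((F m ν (fun t => (N : ℝ) * φ t))ᶜ ∩
      cj ⁻¹' (F m ν (fun t => (N : ℝ) * φ t))ᶜ : Set (HS d k)), fun N => ?_, fun a ha C => ?_⟩
    · have h1 := isOpen_compl_F (d := d) (k := k) hk m hν (fun t => (N : ℝ) * φ t)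
      have h2 : Dense (F m ν (fun t => (N : ℝ) * φ t) : Set (HS d k))ᶜ := by
        rw [← interior_eq_empty_iff_dense_compl, ← not_nonempty_iff_eq_empty]
        exact fun hc => h ⟨N, hc⟩
      exact ⟨isOpenH_img (h1.inter (h1.preimage continuous_cj)),
        isDenseH_img (h2.inter_of_isOpen_left (dense_cj h2) h1)⟩
    · have hle : ∀ t, C * φ t ≤ (⌈C⌉₊ : ℝ) * φ t := fun t =>
        mul_le_mul_of_nonneg_right (Nat.le_ceil C) (hφ t)
      have hm : MemSobolev k a := (ha ⌈C⌉₊).1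
      have h1 := (ha ⌈C⌉₊).2.1
      have h2 := (ha ⌈C⌉₊).2.2
      refine ⟨fun hc => h1 ?_, fun hc => h2 ?_⟩
      · show StaysBelow d (2 * m + 1) k ν _ (co (toH k a))
        rw [funext (co_toH hm)]
        exact hc.mono hle
      · show StaysBelow d (2 * m + 1) k ν _ (co (cj (toH k a)))
        have h3 : co (cj (toH k a)) = fun n => conj (a (-n)) := by
          funext n
          rw [co_cj, co_toH hm]
        rw [h3]
        exact hc.mono hle

theorem Generic.and {Q R : (Lat d → ℂ) → Prop} (hQ : Generic k Q) (hR : Generic k R) :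
    Generic k (fun a => Q a ∧ R a) := by
  obtain ⟨G, hG, h⟩ := hQ
  obtain ⟨G', hG', h'⟩ := hR
  refine ⟨fun j => if j % 2 = 0 then G (j / 2) else G' (j / 2), fun j => ?_, fun a ha => ?_⟩
  · by_cases hj : j % 2 = 0
    · simp only [hj, if_true]
      exact hG _
    · simp only [hj, if_false]
      exact hG' _
  · refine ⟨h a fun i => ?_, h' a fun i => ?_⟩
    · have := ha (2 * i)
      have e1 : 2 * i % 2 = 0 := by omega
      have e2 : 2 * i / 2 = i := by omega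
      simpa only [e1, e2, if_true] using this
    · have := ha (2 * i + 1)
      have e1 : ¬ ((2 * i + 1) % 2 = 0) := by omega
      have e2 : (2 * i + 1) / 2 = i := by omega
      simpa only [e1, e2, if_false] using this

theorem Generic.mono {Q R : (Lat d → ℂ) → Prop} (hQ : Generic k Q) (h : ∀ a, Q a → R a) :
    Generic k R := by
  obtain ⟨G, hG, hq⟩ := hQ
  exact ⟨G, hG, fun a ha => h a (hq a ha)⟩

theorem shift_sol {p : ℕ} {u : ℝ → Lat d → ℂ} (hu : IsGlobalSolution d p k u) (T : ℝ) :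
    IsSolution d p k T (fun t => u (t - T)) where
  mem t _ := hu.mem _
  cont t _ := by
    have h1 : Tendsto (fun s : ℝ => s - T) (𝓝[Icc 0 T] t) (𝓝 (t - T)) := by
      have h2 : Continuous fun s : ℝ => s - T := by fun_prop
      exact (h2.tendsto t).mono_left nhdsWithin_le_nhds
    exact (hu.cont (t - T)).comp h1
  eqn t _ n := by
    obtain ⟨v, hv, he⟩ := hu.eqn (t - T) n
    exact ⟨v, (HasDerivAt.comp_sub_const t T hv).hasDerivWithinAt, he⟩

/-- two-sided growth of a global solution -/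
theorem growth_of (hk : d < 2 * k) {m : ℕ} {ν : (Lat d → ℂ) → ℝ} (hν : IsSize k ν) {φ : ℝ → ℝ}
    {a : Lat d → ℂ} (ho : Outgrow d (2 * m + 1) k ν φ a) {u : ℝ → Lat d → ℂ}
    (hu : IsGlobalSolution d (2 * m + 1) k u) (h0 : u 0 = a) (C : ℝ) :
    (∃ t : ℝ, 0 ≤ t ∧ C * φ t < ν (u t)) ∧ ∃ t : ℝ, 0 ≤ t ∧ C * φ t < ν (u (-t)) := by
  obtain ⟨h1, h2⟩ := ho C
  simp only [StaysBelow, not_forall, not_le] at h1 h2
  constructor
  · obtain ⟨T, v, hv, hv0, t, ht, hlt⟩ := h1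
    refine ⟨t, ht.1, ?_⟩
    rwa [← H203.unique hk hv (hu.isSolution T) (by rw [hv0, h0]) t ht]
  · obtain ⟨T, v, hv, hv0, t, ht, hlt⟩ := h2
    refine ⟨t, ht.1, ?_⟩
    have hT : 0 ≤ T := ht.1.trans ht.2
    have hr := H156.reverse hT (shift_sol hu T)
    have he := H203.unique hk hv hr (by
      rw [hv0]
      funext n
      show _ = conj (u (T - 0 - T) (-n))
      rw [sub_zero, sub_self, h0]) t ht
    have h3 : ν (v t) = ν (u (-t)) := by
      rw [he]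
      have h4 : (fun n => conj (u (T - t - T) (-n))) = fun n => conj (u (-t) (-n)) := by
        funext n
        rw [show T - t - T = -t by ring]
      show ν (fun n => conj (u (T - t - T) (-n))) = _
      rw [h4]
      exact hν.conj_eq _ (hu.mem (-t))
    rwa [h3] at hlt

theorem exclusive {m : ℕ} {ν : (Lat d → ℂ) → ℝ} {φ : ℝ → ℝ}
    (h : Generic k (Outgrow d (2 * m + 1) k ν φ))
    {C : ℝ} {O : Set (Lat d → ℂ)} (hO : IsOpenH k O) (hne : O.Nonempty)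
    (hs : ∀ a ∈ O, StaysBelow d (2 * m + 1) k ν (fun t => C * φ t) a) : False := by
  obtain ⟨a, ha, hQ⟩ := h.exists_mem hO hne
  exact (hQ C).1 (hs a ha)

theorem pos_of_open {Ω : Type*} [MeasurableSpace Ω] (P : Measure Ω) [IsProbabilityMeasure P]
    (g : Lat d → Ω → ℂ) (hm : ∀ n, Measurable (g n)) (hind : iIndepFun g P)
    (hg : ∀ n, P.map (g n) = stdComplexGaussian) {α : ℝ} (hα : (k : ℝ) + d / 2 < α)
    {O : Set (Lat d → ℂ)} (hO : IsOpenH k O) (hne : O.Nonempty) {Q : (Lat d → ℂ) → Prop}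
    (h : ∀ a ∈ O, Q a) : 0 < P {ω | Q (datum g α ω)} :=
  (charge P g hm hind hg hα hO hne).trans_le (measure_mono fun _ hω => h _ hω)

theorem trichotomy (hk : d < 2 * k) (m : ℕ) {ν : (Lat d → ℂ) → ℝ} (hν : IsSize k ν) {φ : ℝ → ℝ}
    (hφ : ∀ t, 0 ≤ φ t) (hb : ∀ T, ∃ M, ∀ t ∈ Icc 0 T, φ t ≤ M) :
    Generic k (fun a : Lat d → ℂ => ∃ u, IsGlobalSolution d (2 * m + 1) k u ∧ u 0 = a ∧
        ∀ C : ℝ, (∃ t : ℝ, 0 ≤ t ∧ C * φ t < ν (u t)) ∧
          ∃ t : ℝ, 0 ≤ t ∧ C * φ t < ν (u (-t))) ∨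
      (∃ O : Set (Lat d → ℂ), IsOpenH k O ∧ O.Nonempty ∧
        ∀ a ∈ O, lifespan d (2 * m + 1) k a = ⊤) ∨
      ∀ δ : ℝ, 0 < δ → ¬ Dense (D m δ : Set (HS d k)) := by
  rcases HS.dichotomy hk (d := d) m with h | h
  · exact Or.inr (Or.inr h)
  · rcases alt hk m hν hφ hb with h1 | ⟨C, O, hO, hne, hs⟩
    · refine Or.inl (Generic.mono (Generic.and (generic_of_dense hk h.1) h1) ?_)
      rintro a ⟨⟨u, hu, h0⟩, ho⟩
      exact ⟨u, hu, h0, growth_of hk hν ho hu h0⟩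
    · exact Or.inr (Or.inl ⟨O, hO, hne, fun a ha => (hs a ha).1⟩)

end Vale.Agent.P139.R3.H39W
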