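import Vale.Agent.P139.R3.H39W.Main

/-! # P139: the Wiener norm and the `H^s` norms are sizes -/

open Set Metric Filter Topology MeasureTheory
open scoped NNReal ENNReal ComplexConjugate

namespace Vale.Agent.P139.R3.H39W

open Vale.Agent.P139.A Vale.Agent.P139.H836 Vale.Agent.P139.H203 Vale.Agent.P139.R3.H36
  Vale.Agent.P139.R3.H36.HS

variable {d k : ℕ}

theorem lsc_of_continuous {ν : (Lat d → ℂ) → ℝ} (h : Continuous fun x : HS d k => ν (co x)) :
    ∀ a, MemSobolev k a → ∀ c : ℝ, c < ν a → ∃ δ : ℝ, 0 < δ ∧ ∀ b, MemSobolev k b →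
      sobolevSq k (fun n => b n - a n) < δ → c < ν b := by
  intro a ha c hc
  have ho : IsOpen {y : HS d k | c < ν (co y)} := isOpen_lt continuous_const h
  have hx : toH k a ∈ {y : HS d k | c < ν (co y)} := by
    show c < ν (co (toH k a))
    rwa [funext (co_toH ha)]
  obtain ⟨r, hr, hball⟩ := Metric.isOpen_iff.1 ho _ hx
  refine ⟨r ^ 2, by positivity, fun b hb hab => ?_⟩
  have h1 : toH k b ∈ ball (toH k a) r := by
    rw [mem_ball, dist_eq_norm]
    rw [← norm_toH_sub ha hb] at hab
    exact lt_of_pow_lt_pow_left₀ 2 hr.le hab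
  have h2 : c < ν (co (toH k b)) := hball h1
  rwa [funext (co_toH hb)] at h2

theorem wiener_size (hk : d < 2 * k) : IsSize (d := d) k (fun a => ∑' n, ‖a n‖) where
  lsc := by
    apply lsc_of_continuous
    have h1 : (fun x : HS d k => ∑' n, ‖co x n‖) = fun x => ‖toW x‖ := by
      funext x
      rw [H156.norm_toW hk]
    show Continuous fun x : HS d k => ∑' n, ‖co x n‖
    rw [h1]
    have h2 : LipschitzWith ⟨Real.sqrt (CS d k), Real.sqrt_nonneg _⟩
        (fun x : HS d k => ‖toW x‖) := by
      refine LipschitzWith.of_dist_le_mul fun x y => ?_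
      rw [Real.dist_eq, dist_eq_norm]
      refine (abs_norm_sub_norm_le _ _).trans ?_
      rw [← toW_sub hk]
      exact norm_toW_le hk (x - y)
    exact h2.continuous
  wiener M := ⟨M, fun _ _ h => h⟩
  conj_eq a _ := by
    show ∑' n, ‖conj (a (-n))‖ = ∑' n, ‖a n‖
    rw [← (Equiv.neg (Lat d)).tsum_eq (fun n => ‖a n‖)]
    refine tsum_congr fun n => ?_
    rw [RCLike.norm_conj, Equiv.neg_apply]

theorem sobolev_size {s : ℕ} (hs : d < 2 * s) (hsk : s ≤ k) :
    IsSize (d := d) k (fun a => Real.sqrt (sobolevSq s a)) where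
  lsc := by
    apply lsc_of_continuous
    show Continuous fun x : HS d k => Real.sqrt (sobolevSq s (co x))
    have hm : ∀ x : HS d k, MemSobolev s (co x) := fun x => H156.memSobolev_mono hsk (memS x)
    have h1 : (fun x : HS d k => Real.sqrt (sobolevSq s (co x))) =
        fun x => ‖(toH s (co x) : HS d s)‖ := by
      funext x
      have h2 := norm_sq_eq (toH s (co x) : HS d s)
      rw [funext (co_toH (hm x))] at h2
      rw [← h2, Real.sqrt_sq (norm_nonneg _)]
    rw [h1]
    have h2 : LipschitzWith 1 (fun x : HS d k => ‖(toH s (co x) : HS d s)‖) := by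
      refine LipschitzWith.of_dist_le_mul fun x y => ?_
      rw [Real.dist_eq, dist_eq_norm, NNReal.coe_one, one_mul]
      refine (abs_norm_sub_norm_le _ _).trans ?_
      refine abs_le_of_sq_le_sq' ?_ (norm_nonneg _) |>.2
      rw [norm_toH_sub (hm y) (hm x), HS.norm_sub_sq]
      exact H156.sobolevSq_mono hsk (mem_sub (memS x) (memS y))
    exact h2.continuous
  wiener M := by
    refine ⟨Real.sqrt (CS d s) * max M 0, fun a ha h => ?_⟩
    have hm : MemSobolev s a := H156.memSobolev_mono hsk ha
    have h1 := norm_toW_le hs (toH s a : HS d s)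
    rw [H156.norm_toW hs, funext (co_toH hm)] at h1
    have h2 := norm_sq_eq (toH s a : HS d s)
    rw [funext (co_toH hm)] at h2
    have h3 : ‖(toH s a : HS d s)‖ = Real.sqrt (sobolevSq s a) := by
      rw [← h2, Real.sqrt_sq (norm_nonneg _)]
    rw [h3] at h1
    refine h1.trans ?_
    gcongr
    exact h.trans (le_max_left _ _)
  conj_eq a _ := by
    show Real.sqrt (sobolevSq s (fun n => conj (a (-n)))) = Real.sqrt (sobolevSq s a)
    rw [sobolevSq_conj]

end Vale.Agent.P139.R3.H39W
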